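import Mathlib

/-! Coloured minimal fragments. -/

set_option linter.unusedSectionVars false
set_option linter.unusedSimpArgs false

namespace Vale.Agent.P034

open Finset

variable {X : Type} [Fintype X] [DecidableEq X] {J : ℕ}

/-- rank by weight -/
noncomputable def rk (lam : X → ℝ) (H : Finset X) (x : X) : ℕ :=
  (H.filter fun y => lam x ≤ lam y).card

theorem card_rk_le (lam : X → ℝ) (H : Finset X) {k : ℝ} (hk : 0 ≤ k) :
    ((H.filter fun x => (rk lam H x : ℝ) ≤ k).card : ℝ) ≤ k := by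
  rcases (H.filter fun x => (rk lam H x : ℝ) ≤ k).eq_empty_or_nonempty with h | h
  · simp [h, hk]
  obtain ⟨x, hx, hmin⟩ := exists_min_image _ lam h
  refine le_trans ?_ (mem_filter.1 hx).2
  exact_mod_cast card_le_card fun y hy => mem_filter.2 ⟨(mem_filter.1 hy).1, hmin y hy⟩

theorem layer (h : X → ℝ) (H : Finset X) : ∀ lam : X → ℝ, (∀ x ∈ H, 0 ≤ lam x) →
    (∀ η, 0 ≤ ∑ x ∈ H.filter (fun x => η ≤ lam x), h x) → 0 ≤ ∑ x ∈ H, lam x * h x := by
  induction H using Finset.strongInduction with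
  | H H ih =>
    intro lam h0 h1
    rcases H.eq_empty_or_nonempty with rfl | hne
    · simp
    obtain ⟨x0, hx0, hmin⟩ := exists_min_image _ lam hne
    have e : ∑ x ∈ H, lam x * h x = lam x0 * ∑ x ∈ H, h x
        + ∑ x ∈ H.filter (fun x => lam x0 < lam x), (lam x - lam x0) * h x := by
      rw [sum_filter, mul_sum, ← sum_add_distrib]
      refine sum_congr rfl fun x hx => ?_
      split_ifs with hlt
      · ring
      · rw [le_antisymm (not_lt.1 hlt) (hmin x hx)]; ring
    rw [e]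
    refine add_nonneg (mul_nonneg (h0 x0 hx0) ?_) (ih _ ?_ _ ?_ fun η => ?_)
    · have := h1 (lam x0)
      rwa [filter_true_of_mem hmin] at this
    · exact filter_ssubset.2 ⟨x0, hx0, lt_irrefl _⟩
    · intro x hx; linarith [(mem_filter.1 hx).2]
    · rcases ((H.filter fun x => lam x0 < lam x).filter fun x => η ≤ lam x - lam x0).eq_empty_or_nonempty
        with h2 | h2
      · simp [h2]
      obtain ⟨x1, hx1, hm1⟩ := exists_min_image _ lam h2
      convert h1 (lam x1) using 2
      ext y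
      simp only [mem_filter] at hx1 hm1 ⊢
      constructor
      · intro hy; exact ⟨hy.1.1, hm1 y hy⟩
      · intro hy; exact ⟨⟨hy.1, by linarith [hx1.1.2, hy.2]⟩, by linarith [hx1.2, hy.2]⟩

noncomputable def bt (j : ℕ) : ℝ := (1 / 2) ^ (j + 1)

theorem bt_pos (j : ℕ) : 0 < bt j := by unfold bt; positivity

theorem sum_bt (J : ℕ) : ∑ j ∈ range J, bt j ≤ 1 := by
  have : ∀ J, ∑ j ∈ range J, bt j = 1 - (1 / 2) ^ J := by
    intro J; induction J with
    | zero => simp
    | succ J ih => rw [sum_range_succ, ih, bt]; ring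
  rw [this]; linarith [show (0 : ℝ) ≤ (1 / 2) ^ J by positivity]

variable (lam : Finset X → X → ℝ)

/-- deficiency at scale `θ` -/
noncomputable def D (H : Finset X) (z : X → Fin (J + 1)) (θ : ℝ) : ℝ :=
  ∑ x, ∑ j ∈ range J, if x ∈ H ∧ (rk (lam H) H x : ℝ) ≤ θ * 4 ^ j ∧ j < z x then bt j else 0

noncomputable def tau (c z : X → Fin (J + 1)) : ℝ :=
  ∑ x, ∑ j ∈ range J, if (z x : ℕ) ≤ j ∧ j < c x then bt j else 0

def P (θ : ℝ) (z : X → Fin (J + 1)) (H : Finset X) : Prop := ∀ θ', θ ≤ θ' → D lam H z θ' ≤ θ' - θ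

theorem D_mono (H : Finset X) (z : X → Fin (J + 1)) {θ θ' : ℝ} (h : θ ≤ θ') :
    D lam H z θ ≤ D lam H z θ' := by
  refine sum_le_sum fun x _ => sum_le_sum fun j _ => ?_
  have := bt_pos j
  have h4 : θ * 4 ^ j ≤ θ' * 4 ^ j := by gcongr
  split_ifs with h1 h2
  · exact le_rfl
  · exact absurd ⟨h1.1, h1.2.1.trans h4, h1.2.2⟩ h2
  · linarith
  · exact le_rfl

theorem D_nonneg (H : Finset X) (z : X → Fin (J + 1)) (θ : ℝ) : 0 ≤ D lam H z θ :=
  sum_nonneg fun x _ => sum_nonneg fun j _ => by have := bt_pos j; positivity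

theorem P_lower (z : X → Fin (J + 1)) (H : Finset X) : IsLowerSet {θ | P lam θ z H} := by
  intro a b hab ha θ' hθ'
  by_cases h : a ≤ θ'
  · linarith [ha θ' h]
  · linarith [ha a le_rfl, D_mono lam H z (not_le.1 h).le]

theorem exists_chi (F : Finset (Finset X)) (hF : F.Nonempty) (z : X → Fin (J + 1)) :
    ∃ H ∈ F, ∀ θ, ∀ H' ∈ F, P lam θ z H' → P lam θ z H := by
  induction hF using Finset.Nonempty.cons_induction with
  | singleton a => exact ⟨a, by simp, by simp⟩
  | cons a s ha hs ih =>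
    obtain ⟨H, hH, h⟩ := ih
    rcases (P_lower lam z a).total (P_lower lam z H) with h1 | h1
    · refine ⟨H, mem_cons_of_mem hH, fun θ H' hH' hP => ?_⟩
      rcases mem_cons.1 hH' with rfl | hH'
      · exact h1 hP
      · exact h θ H' hH' hP
    · refine ⟨a, mem_cons_self _ _, fun θ H' hH' hP => ?_⟩
      rcases mem_cons.1 hH' with rfl | hH'
      · exact hP
      · exact h1 (h θ H' hH' hP)

def Feas (F : Finset (Finset X)) (c : X → Fin (J + 1)) (H : Finset X) (z : X → Fin (J + 1)) : Prop :=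
  (∀ x, z x ≤ c x) ∧ (∀ x, z x < c x → x ∈ H) ∧ ∃ H' ∈ F, P lam (tau c z) z H'

theorem exists_feas (F : Finset (Finset X)) (c : X → Fin (J + 1)) {H : Finset X} (hH : H ∈ F) :
    ∃ z, Feas lam F c H z := by
  classical
  let S : Set ℝ := {θ | 0 ≤ θ ∧ θ ≤ D lam H c θ}
  have hb : BddAbove S := ⟨∑ _x : X, ∑ j ∈ range J, bt j, fun θ hθ => hθ.2.trans
    (sum_le_sum fun x _ => sum_le_sum fun j _ => by have := bt_pos j; split_ifs <;> linarith)⟩
  have h0 : (0 : ℝ) ∈ S := ⟨le_rfl, D_nonneg lam _ _ _⟩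
  set t := sSup S with ht
  have t0 : 0 ≤ t := le_csSup hb h0
  have t1 : t ≤ D lam H c t := csSup_le ⟨0, h0⟩ fun θ hθ => hθ.2.trans (D_mono lam _ _ (le_csSup hb hθ))
  have t2 : D lam H c t = t := le_antisymm (le_csSup hb ⟨D_nonneg lam _ _ _, D_mono lam _ _ t1⟩) t1
  have t3 : ∀ θ, t ≤ θ → D lam H c θ ≤ θ := by
    intro θ hθ
    by_contra h
    have := le_csSup hb (show θ ∈ S from ⟨t0.trans hθ, (not_le.1 h).le⟩)
    rw [le_antisymm this hθ] at h
    exact h t2.le
  let z : X → Fin (J + 1) := fun x =>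
    if h : ∃ j : ℕ, j < c x ∧ x ∈ H ∧ (rk (lam H) H x : ℝ) ≤ t * 4 ^ j then
      ⟨Nat.find h, (Nat.find_spec h).1.trans (c x).2⟩ else c x
  have hz1 : ∀ x, z x ≤ c x := by
    intro x; simp only [z]; split_ifs with h
    · exact (Nat.find_spec h).1.le
    · exact le_rfl
  have hz2 : ∀ x (j : ℕ), ((z x : ℕ) ≤ j ∧ j < c x) ↔
      (x ∈ H ∧ (rk (lam H) H x : ℝ) ≤ t * 4 ^ j ∧ j < c x) := by
    intro x j
    simp only [z]; split_ifs with h
    · constructor
      · rintro ⟨h1, h2⟩
        refine ⟨(Nat.find_spec h).2.1, (Nat.find_spec h).2.2.trans ?_, h2⟩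
        gcongr; norm_num
      · rintro ⟨h1, h2, h3⟩
        exact ⟨Nat.find_min' h ⟨h3, h1, h2⟩, h3⟩
    · constructor
      · omega
      · rintro ⟨h1, h2, h3⟩; exact absurd ⟨j, h3, h1, h2⟩ h
  have htau : tau c z = t := by
    rw [← t2]; simp only [tau, D, hz2]
  refine ⟨z, hz1, fun x hx => ((hz2 x (z x)).1 ⟨le_rfl, hx⟩).1, H, hH, fun θ hθ => ?_⟩
  rw [htau] at hθ
  have : D lam H z θ + tau c z ≤ D lam H c θ := by
    simp only [D, tau, ← sum_add_distrib]
    refine sum_le_sum fun x _ => sum_le_sum fun j _ => ?_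
    have := bt_pos j
    have h4 : t * 4 ^ j ≤ θ * 4 ^ j := by gcongr
    have h5 := hz2 x j
    have h6 : (z x : ℕ) ≤ c x := hz1 x
    split_ifs with h1 h2 h3 h3 h2 h3 h3 <;> first | linarith | (exfalso; omega) | skip
    · exact absurd ⟨h1.1, h1.2.1, by omega⟩ h3
    · exact absurd ⟨(h5.1 h2).1, (h5.1 h2).2.1.trans h4, h2.2⟩ h3
  linarith [t3 θ hθ]

theorem tau_le (c z : X → Fin (J + 1)) : tau c z ≤ (univ.filter fun x => z x < c x).card := by
  rw [card_eq_sum_ones, Nat.cast_sum, sum_filter]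
  refine sum_le_sum fun x _ => ?_
  split_ifs with h
  · refine le_trans (sum_le_sum fun j _ => ?_) ((sum_bt J).trans (by simp))
    have := bt_pos j; split_ifs <;> linarith
  · refine (sum_eq_zero fun j _ => if_neg ?_).le
    have : (c x : ℕ) ≤ z x := not_lt.1 h
    omega

theorem exists_min (F : Finset (Finset X)) (χ : (X → Fin (J + 1)) → Finset X)
    (hχ : ∀ z, χ z ∈ F ∧ ∀ θ, ∀ H' ∈ F, P lam θ z H' → P lam θ z (χ z))
    (c : X → Fin (J + 1)) (hc : ∀ H ∈ F, ¬ P lam 0 c H) {H : Finset X} (hH : H ∈ F) :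
    ∃ z : X → Fin (J + 1), (∀ x, z x ≤ c x) ∧ (univ.filter fun x => z x < c x) ⊆ H ∧
      (univ.filter fun x => z x < c x).Nonempty ∧ ∀ x, z x < c x → x ∈ χ z ∧
        (rk (lam (χ z)) (χ z) x : ℝ) ≤ (univ.filter fun x => z x < c x).card * 4 ^ (z x : ℕ) := by
  classical
  obtain ⟨z, hz, hmax⟩ := exists_max_image (univ.filter fun z => Feas lam F c H z)
    (fun z => ∑ x, (z x : ℕ)) (by
      obtain ⟨z, hz⟩ := exists_feas lam F c hH; exact ⟨z, by simpa using hz⟩)
  obtain ⟨h1, h2, H', hH', h3⟩ := (mem_filter.1 hz).2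
  have h4 := (hχ z).2 _ H' hH' h3
  refine ⟨z, h1, fun x hx => h2 x (mem_filter.1 hx).2, ?_, fun x hx => ?_⟩
  · by_contra he
    rw [not_nonempty_iff_eq_empty] at he
    have e : z = c := funext fun x => le_antisymm (h1 x) (not_lt.1 fun h => by
      have : x ∈ univ.filter fun x => z x < c x := by simpa using h
      simp [he] at this)
    subst e
    have : tau z z = 0 := sum_eq_zero fun x _ => sum_eq_zero fun j _ => if_neg (by omega)
    rw [this] at h3
    exact hc H' hH' h3
  by_contra hn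
  have hx' : (z x : ℕ) < c x := hx
  have hn' : ¬ (x ∈ χ z ∧ (rk (lam (χ z)) (χ z) x : ℝ) ≤ tau c z * 4 ^ (z x : ℕ)) := fun h =>
    hn ⟨h.1, h.2.trans (by have := tau_le c z; gcongr)⟩
  let z' := Function.update z x ⟨z x + 1, by omega⟩
  have hJ : (z x : ℕ) ∈ range J := mem_range.2 (by omega)
  have e1 : tau c z' = tau c z - bt (z x) := by
    simp only [tau]
    rw [← add_sum_erase _ _ (mem_univ x), ← add_sum_erase _ _ (mem_univ x),
      sum_congr rfl (s₂ := univ.erase x) (g := fun y => ∑ j ∈ range J,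
        if (z y : ℕ) ≤ j ∧ j < c y then bt j else 0) fun y hy => by
          simp only [z', Function.update_of_ne (mem_erase.1 hy).1]]
    rw [← add_sum_erase _ _ hJ, ← add_sum_erase _ _ hJ,
      sum_congr rfl (s₂ := (range J).erase (z x)) (g := fun j =>
        if (z x : ℕ) ≤ j ∧ j < c x then bt j else 0) fun j hj => by
          have := (mem_erase.1 hj).1
          simp only [z', Function.update_self]
          exact if_congr (by omega) rfl rfl]
    simp [z', hx']
    ring
  have e2 : ∀ θ, D lam (χ z) z' θ = D lam (χ z) z θ +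
      if x ∈ χ z ∧ (rk (lam (χ z)) (χ z) x : ℝ) ≤ θ * 4 ^ (z x : ℕ) then bt (z x) else 0 := by
    intro θ
    simp only [D]
    rw [← add_sum_erase _ _ (mem_univ x), ← add_sum_erase _ _ (mem_univ x),
      sum_congr rfl (s₂ := univ.erase x) (g := fun y => ∑ j ∈ range J,
        if y ∈ χ z ∧ (rk (lam (χ z)) (χ z) y : ℝ) ≤ θ * 4 ^ j ∧ j < z y then bt j else 0) fun y hy => by
          simp only [z', Function.update_of_ne (mem_erase.1 hy).1]]
    rw [← add_sum_erase _ _ hJ, ← add_sum_erase _ _ hJ,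
      sum_congr rfl (s₂ := (range J).erase (z x)) (g := fun j =>
        if x ∈ χ z ∧ (rk (lam (χ z)) (χ z) x : ℝ) ≤ θ * 4 ^ j ∧ j < z x then bt j else 0) fun j hj => by
          have := (mem_erase.1 hj).1
          simp only [z', Function.update_self]
          exact if_congr (and_congr_right fun _ => and_congr_right fun _ => by omega) rfl rfl]
    simp [z']
    ring
  have hfe : Feas lam F c H z' := by
    refine ⟨fun y => ?_, fun y hy => ?_, χ z, (hχ z).1, fun θ hθ => ?_⟩
    · by_cases hy : y = x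
      · subst hy; simp only [z', Function.update_self]; exact hx'
      · simp only [z', Function.update_of_ne hy]; exact h1 y
    · by_cases hyx : y = x
      · subst hyx; exact h2 _ hx
      · simp only [z', Function.update_of_ne hyx] at hy; exact h2 y hy
    · rw [e1] at hθ ⊢
      have := bt_pos (z x)
      by_cases h : tau c z ≤ θ
      · rw [e2]; have := h4 θ h; split_ifs <;> linarith
      · have a1 := D_mono lam (χ z) z' (not_le.1 h).le
        rw [e2 (tau c z), if_neg hn'] at a1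
        linarith [h4 _ le_rfl]
  have := hmax z' (by simpa using hfe)
  rw [← add_sum_erase _ _ (mem_univ x), ← add_sum_erase _ _ (mem_univ x),
    sum_congr rfl (s₂ := univ.erase x) (g := fun y => (z y : ℕ)) fun y hy => by
      simp only [z', Function.update_of_ne (mem_erase.1 hy).1]] at this
  simp [z'] at this

end Vale.Agent.P034
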