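import Vale.Agent.P034.Frag

/-! Rounding fractional covers. -/

set_option linter.unusedSectionVars false
set_option linter.unusedSimpArgs false

namespace Vale.Agent.P034

open Finset

variable {X : Type} [Fintype X] [DecidableEq X] {J : ℕ}

theorem geom_half (n : ℕ) : ∑ j ∈ range n, (1 / 2 : ℝ) ^ j ≤ 2 := sum_geometric_two_le n

theorem sum_valid (lam : X → ℝ) (H : Finset X) (z : X → Fin (J + 1)) :
    ∑ U ∈ univ.filter (fun U : Finset X => U.Nonempty ∧ ∀ x ∈ U, x ∈ H ∧
      (rk lam H x : ℝ) ≤ U.card * 4 ^ (z x : ℕ)), ∏ x ∈ U, (36 * 8 ^ (z x : ℕ) : ℝ)⁻¹ ≤ 1 / 5 := by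
  classical
  set N := Fintype.card X
  rw [← sum_fiberwise_of_maps_to (g := card) (t := (range N).image (· + 1)) (fun U hU => by
    have h1 := (mem_filter.1 hU).2.1.card_pos
    have h2 := card_le_univ U
    exact mem_image.2 ⟨U.card - 1, mem_range.2 (by omega), by omega⟩),
    sum_image (fun a _ b _ h => by simpa using h)]
  have key : ∀ s : ℕ, ∑ U ∈ (univ.filter (fun U : Finset X => U.Nonempty ∧ ∀ x ∈ U, x ∈ H ∧
      (rk lam H x : ℝ) ≤ U.card * 4 ^ (z x : ℕ))).filter (fun U => U.card = s),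
      ∏ x ∈ U, (36 * 8 ^ (z x : ℕ) : ℝ)⁻¹ ≤ (1 / 6) ^ s := by
    intro s
    let Y := H.filter fun x => (rk lam H x : ℝ) ≤ s * 4 ^ (z x : ℕ)
    have h1 : ∑ x ∈ Y, (2 * 8 ^ (z x : ℕ) : ℝ)⁻¹ ≤ s := by
      rw [← sum_fiberwise_of_maps_to (g := fun x => (z x : ℕ)) (t := range (J + 1))
        (fun x _ => mem_range.2 (z x).2)]
      calc _ ≤ ∑ j ∈ range (J + 1), (s / 2) * (1 / 2 : ℝ) ^ j := by
            refine sum_le_sum fun j _ => ?_
            rw [sum_congr rfl (g := fun _ => (2 * 8 ^ j : ℝ)⁻¹) fun x hx => by rw [(mem_filter.1 hx).2],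
              sum_const, nsmul_eq_mul]
            have : ((Y.filter fun x => (z x : ℕ) = j).card : ℝ) ≤ s * 4 ^ j := by
              refine le_trans ?_ (card_rk_le lam H (k := s * 4 ^ j) (by positivity))
              refine Nat.cast_le.2 (card_le_card fun x hx => ?_)
              simp only [Y, mem_filter] at hx ⊢
              exact ⟨hx.1.1, hx.2 ▸ hx.1.2⟩
            refine (mul_le_mul_of_nonneg_right this (by positivity)).trans (le_of_eq ?_)
            rw [show (8 : ℝ) = 4 * 2 by norm_num, mul_pow, one_div, inv_pow]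
            field_simp
        _ ≤ s := by
            rw [← mul_sum]
            nlinarith [geom_half (J + 1), Nat.cast_nonneg (α := ℝ) s]
    calc _ ≤ ∑ U ∈ Y.powerset.filter (fun U => U.card = s), (1 / 18) ^ s *
            ∏ x ∈ U, (2 * 8 ^ (z x : ℕ) : ℝ)⁻¹ := by
          refine le_trans (le_of_eq (sum_congr rfl fun U hU => ?_))
            (sum_le_sum_of_subset_of_nonneg ?_ fun _ _ _ => by positivity)
          · rw [← (mem_filter.1 hU).2, ← prod_const, ← prod_mul_distrib]
            exact prod_congr rfl fun x _ => by field_simp; norm_num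
          · intro U hU
            simp only [mem_filter, mem_powerset, mem_univ, true_and] at hU ⊢
            refine ⟨fun x hx => mem_filter.2 ?_, hU.2⟩
            rw [← hU.2]; exact hU.1.2 x hx
      _ ≤ (1 / 18) ^ s * ∏ x ∈ Y, (1 + (2 * 8 ^ (z x : ℕ) : ℝ)⁻¹) := by
          rw [← mul_sum, prod_one_add]
          gcongr
          exact filter_subset _ _
      _ ≤ (1 / 18) ^ s * 3 ^ s := by
          refine mul_le_mul_of_nonneg_left ?_ (by positivity)
          calc _ ≤ ∏ x ∈ Y, Real.exp (2 * 8 ^ (z x : ℕ) : ℝ)⁻¹ :=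
                prod_le_prod (fun _ _ => by positivity) fun x _ => by
                  rw [add_comm]; exact Real.add_one_le_exp _
            _ ≤ Real.exp s := by rw [← Real.exp_sum]; exact Real.exp_le_exp.2 h1
            _ ≤ 3 ^ s := by
                rw [← Real.exp_one_pow]
                exact pow_le_pow_left₀ (by positivity) (Real.exp_one_lt_three.le) s
      _ = _ := by rw [← mul_pow]; norm_num
  refine (sum_le_sum fun s _ => key (s + 1)).trans ?_
  have : ∀ n : ℕ, ∑ s ∈ range n, (1 / 6 : ℝ) ^ (s + 1) = 1 / 5 - (1 / 6) ^ n / 5 := by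
    intro n; induction n with
    | zero => simp
    | succ n ih => rw [sum_range_succ, ih]; ring
  rw [this]
  linarith [show (0 : ℝ) ≤ (1 / 6) ^ N / 5 by positivity]

theorem sum_Pr (π : Fin (J + 1) → ℝ) (hπ : ∑ j, π j = 1) :
    ∑ c : X → Fin (J + 1), ∏ x, π (c x) = 1 := by
  rw [← Fintype.piFinset_univ, ← prod_univ_sum (fun _ => univ) (fun _ j => π j)]
  simp [hπ]

open Classical in
theorem bad_le (lam : Finset X → X → ℝ) (F : Finset (Finset X)) (hF : F.Nonempty) {p : ℝ} (hp : 0 < p)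
    (hπ : ∑ j : Fin (J + 1), 36 * p * 8 ^ (j : ℕ) = 1)
    (hns : ∀ G : Finset (Finset X), (∀ H ∈ F, ∃ S ∈ G, S ⊆ H) → 1 / 2 ≤ ∑ S ∈ G, p ^ S.card) :
    ∑ c ∈ univ.filter (fun c : X → Fin (J + 1) => ∀ H ∈ F, ¬ P lam 0 c H),
      ∏ x, (36 * p * 8 ^ (c x : ℕ)) ≤ 2 / 5 := by
  choose χ hχ1 hχ2 using exists_chi (J := J) lam F hF
  let U : (X → Fin (J + 1)) → (X → Fin (J + 1)) → Finset X := fun c z => univ.filter fun x => z x < c x
  let val : (X → Fin (J + 1)) → Finset X → Prop := fun z U => U.Nonempty ∧ ∀ x ∈ U, x ∈ χ z ∧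
      (rk (lam (χ z)) (χ z) x : ℝ) ≤ U.card * 4 ^ (z x : ℕ)
  let π : Fin (J + 1) → ℝ := fun j => 36 * p * 8 ^ (j : ℕ)
  have h1 : ∀ c ∈ univ.filter (fun c : X → Fin (J + 1) => ∀ H ∈ F, ¬ P lam 0 c H),
      (∏ x, π (c x)) * (1 / 2) ≤ ∑ z, if (∀ x, z x ≤ c x) ∧ val z (U c z) then
        (∏ x, π (c x)) * p ^ (U c z).card else 0 := by
    intro c hc
    rw [← sum_filter, ← mul_sum]
    refine mul_le_mul_of_nonneg_left ?_ (by positivity)
    refine (hns ((univ.filter fun z => (∀ x, z x ≤ c x) ∧ val z (U c z)).image (U c))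
      fun H hH => ?_).trans (sum_image_le_of_nonneg fun _ _ => by positivity)
    obtain ⟨z, z1, z2, z3, z4⟩ := exists_min lam F χ (fun z => ⟨hχ1 z, hχ2 z⟩) c (mem_filter.1 hc).2 hH
    exact ⟨U c z, mem_image_of_mem _ (mem_filter.2 ⟨mem_univ _, z1, z3,
      fun x hx => z4 x (mem_filter.1 hx).2⟩), z2⟩
  have h2 : ∀ z : X → Fin (J + 1), ∑ c : X → Fin (J + 1), (if (∀ x, z x ≤ c x) ∧ val z (U c z) then
        (∏ x, π (c x)) * p ^ (U c z).card else 0) ≤ (∏ x, π (z x)) * (1 / 5) := by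
    intro z
    refine le_trans ?_ (mul_le_mul_of_nonneg_left (sum_valid (lam (χ z)) (χ z) z) (by positivity))
    rw [← sum_filter, mul_sum, ← sum_fiberwise_of_maps_to (g := fun c => U c z)
      (t := univ.filter (val z)) (fun c hc => mem_filter.2 ⟨mem_univ _, (mem_filter.1 hc).2.2⟩)]
    refine sum_le_sum fun W _ => ?_
    calc _ ≤ ∑ c : X → Fin (J + 1), ∏ x, (if x ∈ W then p * π (c x) else if c x = z x then π (c x) else 0) := by
          refine le_trans (le_of_eq (sum_congr rfl fun c hc => ?_))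
            (sum_le_sum_of_subset_of_nonneg (subset_univ _) fun _ _ _ =>
              prod_nonneg fun x _ => by positivity)
          simp only [mem_filter, mem_univ, true_and] at hc
          rw [hc.2, ← prod_const, ← prod_ite_mem_eq W, ← prod_mul_distrib]
          refine prod_congr rfl fun x _ => ?_
          split_ifs with a1 a2
          · ring
          · ring
          · exfalso
            rw [← hc.2] at a1
            simp only [U, mem_filter, mem_univ, true_and, not_lt] at a1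
            exact a2 (le_antisymm a1 (hc.1.1 x))
      _ = ∏ x, (if x ∈ W then p else π (z x)) := by
          rw [← Fintype.piFinset_univ, ← prod_univ_sum (fun _ => univ)
            (fun x j => if x ∈ W then p * π j else if j = z x then π j else 0)]
          refine prod_congr rfl fun x _ => ?_
          split_ifs
          · rw [← mul_sum, hπ, mul_one]
          · simp
      _ = _ := by
          rw [← prod_ite_mem_eq W, ← prod_mul_distrib]
          refine prod_congr rfl fun x _ => ?_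
          split_ifs
          · simp only [π]; field_simp
          · simp
  have h3 := (sum_le_sum h1).trans ((sum_le_univ_sum_of_nonneg fun c =>
    sum_nonneg fun z _ => by positivity).trans (sum_comm.trans_le (sum_le_sum fun z _ => h2 z)))
  rw [← sum_mul, ← sum_mul, sum_Pr π hπ] at h3
  linarith

/-- vertex weights from a fractional cover -/
noncomputable def wt (g : Finset X → ℝ) (H : Finset X) (x : X) : ℝ :=
  ∑ S ∈ H.powerset, if x ∈ S then g S / S.card else 0

theorem sum_wt (g : Finset X → ℝ) (H : Finset X) (f : X → ℝ) :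
    ∑ x ∈ H, wt g H x * f x = ∑ S ∈ H.powerset, g S / S.card * ∑ x ∈ S, f x := by
  simp only [wt, sum_mul]
  rw [sum_comm]
  refine sum_congr rfl fun S hS => ?_
  simp only [ite_mul, zero_mul]
  rw [sum_ite_mem, inter_eq_right.2 (mem_powerset.1 hS), mul_sum]

theorem good_phi (g : Finset X → ℝ) (hg : ∀ S, 0 ≤ g S) (H : Finset X) (c : X → Fin (J + 1))
    (hP : P (wt g) 0 c H) : (∑ S ∈ H.powerset.erase ∅, g S) / 2 ≤
      ∑ S ∈ univ.erase ∅, g S * ∏ x ∈ S, (16 ^ 8 / 16 ^ (c x : ℕ) : ℝ) := by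
  have hw : ∀ x, 0 ≤ wt g H x := fun x => sum_nonneg fun S _ => by have := hg S; positivity
  have h1 : ∀ j ∈ range J, ∑ x ∈ H, wt g H x * (if j < c x then 1 else 0)
      ≤ 2 * (1 / 2) ^ j * ∑ x ∈ H, wt g H x := by
    intro j hj
    have := layer (fun x => 2 * (1 / 2) ^ j - (if j < c x then 1 else 0)) H (wt g H) (fun x _ => hw x)
      fun η => by
        set A := H.filter fun x => η ≤ wt g H x with hA
        set θ : ℝ := A.card / 4 ^ j with hθ
        have a1 := hP θ (by positivity)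
        have a2 : ∑ x ∈ A, (if j < c x then bt j else 0) ≤ D (wt g) H c θ := by
          refine le_trans (sum_le_sum fun x hx => ?_) (sum_le_univ_sum_of_nonneg fun x =>
            sum_nonneg fun j _ => by have := bt_pos j; positivity)
          refine le_trans (le_of_eq (if_congr ?_ rfl rfl)) (single_le_sum
            (f := fun i : ℕ => if x ∈ H ∧ (rk (wt g H) H x : ℝ) ≤ θ * 4 ^ i ∧ i < c x
              then bt i else 0) (fun j _ => by have := bt_pos j; positivity) hj)
          have b1 : (rk (wt g H) H x : ℝ) ≤ θ * 4 ^ j := by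
            rw [hθ, div_mul_cancel₀ _ (by positivity)]
            refine Nat.cast_le.2 (card_le_card fun y hy => ?_)
            simp only [hA, mem_filter] at hx hy ⊢
            exact ⟨hy.1, hx.2.trans hy.2⟩
          simp [b1, (mem_filter.1 hx).1]
        have a3 : ∑ x ∈ A, (if j < c x then bt j else 0) = bt j * ∑ x ∈ A, (if j < c x then 1 else 0) := by
          rw [mul_sum]; simp
        have a4 : θ = bt j * (A.card * (2 * (1 / 2) ^ j)) := by
          rw [hθ, bt, show (4 : ℝ) = 2 * 2 by norm_num, mul_pow, pow_succ, one_div, inv_pow]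
          field_simp
        rw [sum_sub_distrib, sum_const, nsmul_eq_mul, sub_nonneg]
        exact le_of_mul_le_mul_left (by linarith) (bt_pos j)
    simp only [mul_sub, sum_sub_distrib, ← sum_mul] at this
    linarith
  have h2 : ∑ x ∈ H, wt g H x * (c x : ℕ) ≤ 4 * ∑ x ∈ H, wt g H x := by
    have e : ∀ x, ((c x : ℕ) : ℝ) = ∑ j ∈ range J, if j < c x then 1 else 0 := by
      intro x
      rw [sum_boole]
      congr 1
      rw [show (range J).filter (fun j : ℕ => j < (c x : ℕ)) = range (c x : ℕ) from ?_, card_range]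
      ext j; have := (c x).2; simp; omega
    simp only [e, mul_sum]
    rw [sum_comm]
    refine (sum_le_sum h1).trans ?_
    rw [← sum_mul, ← mul_sum, ← mul_sum]
    exact mul_le_mul_of_nonneg_right (by linarith [geom_half J]) (sum_nonneg fun x _ => hw x)
  have h3 : ∑ x ∈ H, wt g H x = ∑ S ∈ H.powerset.erase ∅, g S := by
    have := sum_wt g H (fun _ => 1)
    simp only [mul_one, sum_const, nsmul_eq_mul] at this
    rw [this, ← add_sum_erase _ _ (empty_mem_powerset H)]
    simp only [card_empty, Nat.cast_zero, mul_zero, zero_add]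
    refine sum_congr rfl fun S hS => div_mul_cancel₀ _ ?_
    exact_mod_cast (card_pos.2 (nonempty_iff_ne_empty.2 (mem_erase.1 hS).1)).ne'
  rw [sum_wt, h3, ← add_sum_erase _ _ (empty_mem_powerset H)] at h2
  simp only [sum_empty, mul_zero, zero_add] at h2
  refine le_trans ?_ (sum_le_sum_of_subset_of_nonneg (s := H.powerset.erase ∅)
    (erase_subset_erase _ (subset_univ _)) fun S _ _ => mul_nonneg (hg S) (by positivity))
  have h4 : ∀ S ∈ H.powerset.erase ∅, g S - g S / S.card * (∑ x ∈ S, ((c x : ℕ) : ℝ)) / 8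
      ≤ g S * ∏ x ∈ S, (16 ^ 8 / 16 ^ (c x : ℕ) : ℝ) := by
    intro S hS
    have hc : (0 : ℝ) < S.card := by
      exact_mod_cast card_pos.2 (nonempty_iff_ne_empty.2 (mem_erase.1 hS).1)
    have hgS := hg S
    by_cases h : ∑ x ∈ S, (c x : ℕ) ≤ 8 * S.card
    · have : (1 : ℝ) ≤ ∏ x ∈ S, (16 ^ 8 / 16 ^ (c x : ℕ) : ℝ) := by
        rw [prod_div_distrib, prod_const, prod_pow_eq_pow_sum, ← pow_mul, one_le_div (by positivity)]
        exact pow_le_pow_right₀ (by norm_num) h
      have a : 0 ≤ g S / S.card * (∑ x ∈ S, ((c x : ℕ) : ℝ)) / 8 := by positivity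
      nlinarith
    · have a : (8 * S.card : ℝ) ≤ ∑ x ∈ S, ((c x : ℕ) : ℝ) := by exact_mod_cast (not_le.1 h).le
      have b : g S / S.card * (8 * S.card) ≤ g S / S.card * ∑ x ∈ S, ((c x : ℕ) : ℝ) := by gcongr
      rw [show g S / S.card * (8 * S.card) = 8 * g S by field_simp] at b
      have : 0 ≤ g S * ∏ x ∈ S, (16 ^ 8 / 16 ^ (c x : ℕ) : ℝ) := by positivity
      linarith
  refine le_trans ?_ (sum_le_sum h4)
  rw [sum_sub_distrib, ← sum_div]
  linarith

theorem small (F : Finset (Finset X)) (hF : F.Nonempty) (g : Finset X → ℝ) (hg : ∀ S, 0 ≤ g S)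
    (hcov : ∀ H ∈ F, 1 ≤ ∑ S ∈ H.powerset, g S) {q p : ℝ} (hp : 0 < p)
    (hw : ∑ S, g S * q ^ S.card ≤ 1 / 2) (hpq : 288 * 16 ^ 8 * p ≤ q)
    (hπ : ∑ j : Fin (J + 1), 36 * p * 8 ^ (j : ℕ) = 1) :
    ∃ G : Finset (Finset X), (∀ H ∈ F, ∃ S ∈ G, S ⊆ H) ∧ ∑ S ∈ G, p ^ S.card ≤ 1 / 2 := by
  classical
  by_contra hn
  have h1 := bad_le (J := J) (wt g) F hF hp hπ fun G hG => by
    by_contra h; exact hn ⟨G, hG, (not_le.1 h).le⟩
  have hq : 0 < q := lt_of_lt_of_le (by positivity) hpq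
  have g0 : g ∅ ≤ 1 / 2 := by
    refine le_trans ?_ hw
    simpa using single_le_sum (f := fun S : Finset X => g S * q ^ S.card)
      (fun S _ => mul_nonneg (hg S) (by positivity)) (mem_univ ∅)
  let π : Fin (J + 1) → ℝ := fun j => 36 * p * 8 ^ (j : ℕ)
  have h2 : ∑ c ∈ univ.filter (fun c : X → Fin (J + 1) => ¬ ∀ H ∈ F, ¬ P (wt g) 0 c H),
      (∏ x, π (c x)) * (1 / 4) ≤ ∑ c : X → Fin (J + 1), (∏ x, π (c x)) *
        ∑ S ∈ univ.erase ∅, g S * ∏ x ∈ S, (16 ^ 8 / 16 ^ (c x : ℕ) : ℝ) := by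
    refine le_trans (sum_le_sum fun c hc => ?_) (sum_le_univ_sum_of_nonneg fun c =>
      mul_nonneg (by positivity) (sum_nonneg fun S _ => mul_nonneg (hg S) (by positivity)))
    refine mul_le_mul_of_nonneg_left ?_ (by positivity)
    have := (mem_filter.1 hc).2
    push Not at this
    obtain ⟨H, hH, hP⟩ := this
    refine le_trans ?_ (good_phi g hg H c hP)
    have := hcov H hH
    rw [← add_sum_erase _ _ (empty_mem_powerset H)] at this
    linarith
  have h3 : ∀ S ∈ (univ : Finset (Finset X)).erase ∅, ∑ c : X → Fin (J + 1), (∏ x, π (c x)) *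
      (g S * ∏ x ∈ S, (16 ^ 8 / 16 ^ (c x : ℕ) : ℝ)) ≤ g S * q ^ S.card / 4 := by
    intro S hS
    have e : ∀ c : X → Fin (J + 1), (∏ x, π (c x)) * (g S * ∏ x ∈ S, (16 ^ 8 / 16 ^ (c x : ℕ) : ℝ))
        = g S * ∏ x, (π (c x) * if x ∈ S then (16 ^ 8 / 16 ^ (c x : ℕ) : ℝ) else 1) := by
      intro c; rw [prod_mul_distrib (f := fun x => π (c x)), prod_ite_mem_eq]; ring
    simp only [e, ← mul_sum]
    rw [mul_div_assoc]
    refine mul_le_mul_of_nonneg_left ?_ (hg S)
    rw [← Fintype.piFinset_univ, ← prod_univ_sum (fun _ => univ)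
      (fun x (j : Fin (J + 1)) => π j * if x ∈ S then (16 ^ 8 / 16 ^ (j : ℕ) : ℝ) else 1)]
    have a : ∑ j : Fin (J + 1), π j * (16 ^ 8 / 16 ^ (j : ℕ) : ℝ) ≤ q / 4 := by
      have : ∀ j : Fin (J + 1), π j * (16 ^ 8 / 16 ^ (j : ℕ) : ℝ)
          = 36 * 16 ^ 8 * p * (1 / 2) ^ (j : ℕ) := by
        intro j
        simp only [π]
        rw [show (16 : ℝ) ^ (j : ℕ) = 8 ^ (j : ℕ) * 2 ^ (j : ℕ) by rw [← mul_pow]; norm_num, one_div, inv_pow]
        field_simp
      simp only [this]
      rw [← mul_sum, Fin.sum_univ_eq_sum_range (fun j => (1 / 2 : ℝ) ^ j)]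
      nlinarith [geom_half (J + 1)]
    calc _ ≤ ∏ x, (if x ∈ S then q / 4 else 1) := by
          refine prod_le_prod (fun x _ => sum_nonneg fun j _ => by positivity) fun x _ => ?_
          split_ifs
          · exact a
          · simp only [mul_one]; exact hπ.le
      _ = q ^ S.card / 4 ^ S.card := by rw [prod_ite_mem_eq, prod_const, div_pow]
      _ ≤ _ := by
          gcongr
          exact le_self_pow₀ (by norm_num)
            (card_pos.2 (nonempty_iff_ne_empty.2 (mem_erase.1 hS).1)).ne'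
  simp only [mul_sum (s := univ.erase ∅)] at h2
  rw [sum_comm] at h2
  have h4 := h2.trans (sum_le_sum h3)
  rw [← sum_div, ← sum_mul] at h4
  have h5 : ∑ S ∈ univ.erase ∅, g S * q ^ S.card ≤ 1 / 2 :=
    (sum_le_univ_sum_of_nonneg fun S => mul_nonneg (hg S) (by positivity)).trans hw
  have h6 := sum_filter_add_sum_filter_not univ
    (fun c : X → Fin (J + 1) => ∀ H ∈ F, ¬ P (wt g) 0 c H) (fun c => ∏ x, π (c x))
  rw [sum_Pr π hπ] at h6
  linarith

theorem exists_J {p0 : ℝ} (h0 : 0 < p0) (h1 : 36 * p0 ≤ 1) : ∃ (J : ℕ) (p : ℝ), 0 < p ∧ p ≤ p0 ∧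
    p0 ≤ 10 * p ∧ ∑ j : Fin (J + 1), 36 * p * 8 ^ (j : ℕ) = 1 := by
  obtain ⟨J, hJ1, hJ2⟩ := exists_nat_pow_near (x := (36 * p0)⁻¹) (y := 8)
    (by rw [le_inv_comm₀ one_pos (by positivity)]; simpa using h1) (by norm_num)
  have e : ∀ n : ℕ, ∑ j ∈ range n, (8 : ℝ) ^ j = (8 ^ n - 1) / 7 := by
    intro n; rw [geom_sum_eq (by norm_num)]; norm_num
  have hJ3 : (1 : ℝ) ≤ 8 ^ J := one_le_pow₀ (by norm_num)
  rw [le_inv_comm₀ (by positivity) (by positivity), ← one_div, le_div_iff₀ (by positivity)] at hJ1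
  rw [inv_lt_comm₀ (by positivity) (by positivity), ← one_div, div_lt_iff₀ (by positivity)] at hJ2
  refine ⟨J + 1, (36 * ((8 ^ (J + 2) - 1) / 7))⁻¹, ?_, ?_, ?_, ?_⟩
  · have : (1 : ℝ) < 8 ^ (J + 2) := one_lt_pow₀ (by norm_num) (by omega)
    have : (0 : ℝ) < 8 ^ (J + 2) - 1 := by linarith
    positivity
  · rw [pow_succ] at hJ2
    rw [inv_le_comm₀ (by rw [pow_add]; linarith) h0, ← one_div, div_le_iff₀ h0, pow_add]
    nlinarith
  · rw [← div_eq_mul_inv, le_div_iff₀ (by rw [pow_add]; linarith), pow_add]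
    nlinarith
  · rw [← mul_sum, Fin.sum_univ_eq_sum_range (fun j => (8 : ℝ) ^ j), e]
    have : (1 : ℝ) < 8 ^ (J + 2) := one_lt_pow₀ (by norm_num) (by omega)
    have : (8 : ℝ) ^ (J + 2) - 1 ≠ 0 := by linarith
    field_simp

end Vale.Agent.P034
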